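import Vale.Agent.P159.H950.D1

/-!
Gaussian lower bounds (for the deficit) at the level of partition functions:
stability under sums of fields.
-/

set_option linter.all false
set_option autoImplicit false

open MeasureTheory Filter Topology
open scoped BigOperators

namespace Vale.Agent.P159.T1.H43

open Vale.Agent.P159 Vale.Agent.P159.UJ Vale.Agent.P159.H950

section Abs

variable {G : Type*} [AddCommGroup G] [TopologicalSpace G] [IsTopologicalAddGroup G]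
  [CompactSpace G] [SecondCountableTopology G] [MeasurableSpace G] [BorelSpace G]
  (μ : Measure G) [μ.IsAddHaarMeasure] [IsProbabilityMeasure μ]
  {κ : Type*} [Fintype κ] (J : κ → ℝ) (χ : κ → Chr G)

/-- the core of locality: `Z(f + g)` from `Z(2 f)`, `Z(2 g)` and a lower bound of `Z(f - g)` -/
theorem add_core (h2 : ∀ g : G, ∃ h : G, h + h = g) (hJ : ∀ e, 0 ≤ J e) {f g : κ → ℝ}
    {c1 c2 c3 : ℝ} (hf : Zr μ J χ (f + f) ≤ Real.exp c1 * Zr μ J χ 0)
    (hg : Zr μ J χ (g + g) ≤ Real.exp c2 * Zr μ J χ 0)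
    (hd : Real.exp (-c3) * Zr μ J χ 0 ≤ Zr μ J χ (f - g)) :
    Zr μ J χ (f + g) ≤ Real.exp ((c1 + c2) / 2 + c3) * Zr μ J χ 0 := by
  have h := four μ J χ h2 hJ (f + g) (f - g)
  rw [show f + g + (f - g) = f + f by abel, show f + g - (f - g) = g + g by abel] at h
  have z0 := Zr_pos μ J χ 0
  have zs := Zr_pos μ J χ (f + g)
  have zf := Zr_pos μ J χ (f + f)
  have zg := Zr_pos μ J χ (g + g)
  have zd := Zr_pos μ J χ (f - g)
  have e0 : 0 < Real.exp (-c3) * Zr μ J χ 0 := mul_pos (Real.exp_pos _) z0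
  have h1 : Zr μ J χ (f + g) ^ 2 * (Real.exp (-c3) * Zr μ J χ 0) ^ 2 ≤
      (Real.exp c1 * Zr μ J χ 0) * (Real.exp c2 * Zr μ J χ 0) * Zr μ J χ 0 ^ 2 := by
    calc Zr μ J χ (f + g) ^ 2 * (Real.exp (-c3) * Zr μ J χ 0) ^ 2
        ≤ Zr μ J χ (f + g) ^ 2 * Zr μ J χ (f - g) ^ 2 := by gcongr
      _ ≤ Zr μ J χ (f + f) * Zr μ J χ (g + g) * Zr μ J χ 0 ^ 2 := h
      _ ≤ _ := by gcongr
  have h3 : Zr μ J χ (f + g) ^ 2 ≤ (Real.exp ((c1 + c2) / 2 + c3) * Zr μ J χ 0) ^ 2 := by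
    refine le_of_mul_le_mul_right (h1.trans (le_of_eq ?_)) (pow_pos e0 2)
    have e1 : Real.exp ((c1 + c2) / 2 + c3) ^ 2 * Real.exp (-c3) ^ 2 =
        Real.exp c1 * Real.exp c2 := by
      rw [← Real.exp_nat_mul, ← Real.exp_nat_mul, ← Real.exp_add, ← Real.exp_add]
      congr 1
      push_cast
      ring
    calc Real.exp c1 * Zr μ J χ 0 * (Real.exp c2 * Zr μ J χ 0) * Zr μ J χ 0 ^ 2
        = (Real.exp c1 * Real.exp c2) * Zr μ J χ 0 ^ 4 := by ring
      _ = (Real.exp ((c1 + c2) / 2 + c3) ^ 2 * Real.exp (-c3) ^ 2) * Zr μ J χ 0 ^ 4 := by rw [e1]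
      _ = _ := by ring
  exact (pow_le_pow_iff_left₀ zs.le (mul_pos (Real.exp_pos _) z0).le two_ne_zero).1 h3

end Abs

/-! ### sequences of regions -/

/-- partition function at scale `N`, for arbitrary characters on the half-bonds -/
noncomputable def zG (b : ℝ) (R : ℕ → Finset (ℤ × ℤ)) (χ : ∀ N, KR (R N) → Chr Ginf) (N : ℕ)
    (y : Fld) : ℝ :=
  Zr muInf (fun _ : KR (R N) => b / 2) (χ N) (twR (R N) y)

/-- quadratic form at scale `N` -/
noncomputable def qG (b : ℝ) (R : ℕ → Finset (ℤ × ℤ)) (χ : ∀ N, KR (R N) → Chr Ginf) (N : ℕ)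
    (y : Fld) : ℝ :=
  Qform muInf (fun _ : KR (R N) => b / 2) (χ N) (twR (R N) y)

variable {b Y : ℝ} {R : ℕ → Finset (ℤ × ℤ)} {χ : ∀ N, KR (R N) → Chr Ginf}

theorem zG_pos (N : ℕ) (y : Fld) : 0 < zG b R χ N y := Zr_pos muInf _ _ _

theorem qG_smul (N : ℕ) (s : ℝ) (y : Fld) : qG b R χ N (s • y) = s ^ 2 * qG b R χ N y :=
  Qform_smul muInf _ _ s (twR (R N) y)

theorem zG_lower (hb : 0 ≤ b) (N : ℕ) (y : Fld) :
    Real.exp (-(qG b R χ N y / 2)) * zG b R χ N 0 ≤ zG b R χ N y := by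
  have h := lowerZ muInf (fun _ : KR (R N) => b / 2) (χ N) G_div2 (half_nonneg' hb (R N))
    (twR (R N) y)
  rw [QQ_zero, le_div_iff₀ (Zr_pos muInf _ _ _), neg_div] at h
  exact h

/-- Gaussian lower bound for the decay of the partition function along the field `f` -/
def GLBG (b Y : ℝ) (R : ℕ → Finset (ℤ × ℤ)) (χ : ∀ N, KR (R N) → Chr Ginf) (f : SF) : Prop :=
  ∃ C : ℝ, ∀ t : ℝ, ∀ᶠ N : ℕ in atTop, zG b R χ N ((t / N) • f N) ≤
    Real.exp (C - Y * t ^ 2 * nR (R N) (f N) / (2 * (N : ℝ) ^ 2)) * zG b R χ N 0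

/-- upper bound of the quadratic form along `f` -/
def UBG (b Y : ℝ) (R : ℕ → Finset (ℤ × ℤ)) (χ : ∀ N, KR (R N) → Chr Ginf) (f : SF) : Prop :=
  ∀ ε : ℝ, 0 < ε → ∀ᶠ N : ℕ in atTop,
    qG b R χ N (f N) / (N : ℝ) ^ 2 ≤ Y * (nR (R N) (f N) / (N : ℝ) ^ 2) + ε

theorem zG_congr (N : ℕ) {y z : Fld} (h : ∀ c ∈ R N, y c = z c) :
    zG b R χ N y = zG b R χ N z := by
  unfold zG
  rw [twR_congr h]

/-- a lower bound of the partition function -/
theorem lowerG (hb : 0 ≤ b) {f : SF} (hf : UBG b Y R χ f) (t : ℝ) {ε : ℝ} (hε : 0 < ε) :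
    ∀ᶠ N : ℕ in atTop,
      Real.exp (-(Y * t ^ 2 * nR (R N) (f N) / (2 * (N : ℝ) ^ 2) + ε)) * zG b R χ N 0 ≤
        zG b R χ N ((t / N) • f N) := by
  have hδ : 0 < ε / (t ^ 2 + 1) := by positivity
  filter_upwards [hf _ hδ, eventually_ge_atTop 1] with N h1 hN
  have hN0 : (0 : ℝ) < N := by exact_mod_cast hN
  refine le_trans (mul_le_mul_of_nonneg_right (Real.exp_le_exp.2 ?_) (zG_pos N 0).le)
    (zG_lower hb N _)
  rw [qG_smul]
  have h2 : t ^ 2 * (qG b R χ N (f N) / (N : ℝ) ^ 2) ≤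
      t ^ 2 * (Y * (nR (R N) (f N) / (N : ℝ) ^ 2) + ε / (t ^ 2 + 1)) :=
    mul_le_mul_of_nonneg_left h1 (sq_nonneg t)
  have h3 : t ^ 2 * (ε / (t ^ 2 + 1)) ≤ ε := by
    rw [mul_div_assoc', div_le_iff₀ (by positivity)]
    nlinarith only [hε, sq_nonneg t]
  have e1 : (t / N) ^ 2 * qG b R χ N (f N) = t ^ 2 * (qG b R χ N (f N) / (N : ℝ) ^ 2) := by
    field_simp
  have e2 : Y * t ^ 2 * nR (R N) (f N) / (2 * (N : ℝ) ^ 2) =
      t ^ 2 * (Y * (nR (R N) (f N) / (N : ℝ) ^ 2)) / 2 := by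
    field_simp
  rw [e1, e2]
  nlinarith only [h2, h3, hε]

/-- **locality**: Gaussian lower bounds add up -/
theorem GLBG.add (hb : 0 ≤ b) {f g : SF} (hd : UBG b Y R χ (fun N => f N - g N))
    (hf : GLBG b Y R χ f) (hg : GLBG b Y R χ g) : GLBG b Y R χ (fun N => f N + g N) := by
  obtain ⟨C1, h1⟩ := hf
  obtain ⟨C2, h2⟩ := hg
  refine ⟨(C1 + C2) / 2 + 1, fun t => ?_⟩
  filter_upwards [h1 (2 * t), h2 (2 * t), lowerG hb hd t one_pos] with N e1 e2 e3
  have tw_add : ∀ y z : Fld, twR (R N) (y + z) = twR (R N) y + twR (R N) z := fun _ _ => rfl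
  have tw_sub : ∀ y z : Fld, twR (R N) (y - z) = twR (R N) y - twR (R N) z := fun _ _ => rfl
  have s1 : (2 * t / N) • f N = (t / N) • f N + (t / N) • f N := by
    rw [← add_smul]; congr 1; ring
  have s2 : (2 * t / N) • g N = (t / N) • g N + (t / N) • g N := by
    rw [← add_smul]; congr 1; ring
  have s3 : (t / N) • (f N - g N) = (t / N) • f N - (t / N) • g N := smul_sub _ _ _
  have s4 : (t / N) • (f N + g N) = (t / N) • f N + (t / N) • g N := smul_add _ _ _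
  rw [s1] at e1
  rw [s2] at e2
  rw [s3] at e3
  rw [s4]
  unfold zG at e1 e2 e3 ⊢
  rw [tw_add] at e1 e2 ⊢
  rw [tw_sub] at e3
  have z0 : twR (R N) 0 = 0 := rfl
  rw [z0] at e1 e2 e3 ⊢
  refine (add_core muInf (fun _ : KR (R N) => b / 2) (χ N) G_div2 (half_nonneg' hb (R N))
    e1 e2 e3).trans (le_of_eq ?_)
  congr 2
  have hp := nR_par (R N) (f N) (g N)
  have e5 : nR (R N) (f N - g N) = 2 * nR (R N) (f N) + 2 * nR (R N) (g N) -
    nR (R N) (f N + g N) := by linarith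
  rw [e5]
  ring

theorem vf_zero : VF (fun _ : ℕ => (0 : Fld)) := by
  refine ⟨fun K => ⟨0, fun N _ c _ d => by simp⟩, fun K l _ => ?_⟩
  have : ∀ N : ℕ, nR (bx (K * N)) ((0 : Fld) - corF l (0 : Fld)) / (N : ℝ) ^ 2 = 0 := by
    intro N
    have e : (0 : Fld) - corF l (0 : Fld) = 0 := by
      funext c d
      simp [corF]
    rw [e]
    simp [nR, sq2]
  simp only [this]
  exact tendsto_const_nhds

theorem GLBG.zero : GLBG b Y R χ (fun _ : ℕ => (0 : Fld)) := by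
  refine ⟨0, fun t => Eventually.of_forall fun N => ?_⟩
  have e1 : nR (R N) (0 : Fld) = 0 := by
    unfold nR sq2; simp
  rw [smul_zero, e1]
  simp

/-- finite sums -/
theorem GLBG.sum (hb : 0 ≤ b) {ι : Type*} (s : Finset ι) (f : ι → SF)
    (hU : ∀ g : SF, VF g → UBG b Y R χ g) (hv : ∀ i ∈ s, VF (f i)) (hf : ∀ i ∈ s, GLBG b Y R χ (f i)) :
    GLBG b Y R χ (fun N => ∑ i ∈ s, f i N) ∧ VF (fun N => ∑ i ∈ s, f i N) := by
  classical
  induction s using Finset.induction_on with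
  | empty =>
    have hz : (fun N => ∑ i ∈ (∅ : Finset ι), f i N) = fun _ : ℕ => (0 : Fld) := by
      funext N; simp
    rw [hz]
    exact ⟨GLBG.zero, vf_zero⟩
  | insert a s ha ih =>
    have h1 := ih (fun i hi => hv i (Finset.mem_insert_of_mem hi))
      (fun i hi => hf i (Finset.mem_insert_of_mem hi))
    have e : (fun N => ∑ i ∈ insert a s, f i N) = fun N => f a N + ∑ i ∈ s, f i N := by
      funext N
      rw [Finset.sum_insert ha]
    rw [e]
    have hva := hv a (Finset.mem_insert_self a s)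
    exact ⟨GLBG.add hb (hU _ (hva.sub h1.2)) (hf a (Finset.mem_insert_self a s)) h1.1,
      hva.add h1.2⟩

end Vale.Agent.P159.T1.H43
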